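import Vale.Agent.Lib.P075.Norm

namespace Vale.Agent.Results.P075.ConstAtLeastThree

open Vale.Agent.Lib.P075

/-- Any constant `C` for which the dyadic triangular Hilbert form satisfies
`|Λ^d_{S,ε}(F0,F1,F2)| ≤ C ‖F0‖_{p0} ‖F1‖_{p1} ‖F2‖_{p2}` uniformly in the finite set of scales `S`,
the coefficients `|ε_k| ≤ 1` and the admissible functions, with exponents on the Hoelder line
(in particular for `p0 = p1 = p2 = 3`), is at least `3`. -/
theorem result (p0 p1 p2 : ℝ) (h0 : 0 < p0) (h1 : 0 < p1) (h2 : 0 < p2)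
    (hH : 1 / p0 + 1 / p1 + 1 / p2 = 1) (C : ℝ)
    (hC : ∀ (S : Finset ℤ) (ε : ℤ → ℝ) (F0 F1 F2 : ℝ → ℝ → ℝ), (∀ k, |ε k| ≤ 1) →
      Adm F0 → Adm F1 → Adm F2 →
      |LamD S ε F0 F1 F2| ≤ C * (normLp p0 F0 * normLp p1 F1 * normLp p2 F2)) :
    3 ≤ C := by
  have key : ∀ r : ℕ, 3 * (1 - (1/2:ℝ) ^ r) ≤ C := by
    intro r
    have h := hC (Sex r) epsEx (Fex r) (Fex r) (Fex r) abs_epsEx (Adm_Fex r) (Adm_Fex r) (Adm_Fex r)
    rw [LamD_ex, normLp_Fex r h0, normLp_Fex r h1, normLp_Fex r h2] at h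
    have hW : (0:ℝ) < (4:ℝ) ^ r * (4:ℝ) ^ r := by positivity
    rw [← Real.rpow_add hW, ← Real.rpow_add hW, hH, Real.rpow_one] at h
    have hnn : (0:ℝ) ≤ 3 * (1 - (1/2:ℝ) ^ r) := by
      have : (1/2:ℝ) ^ r ≤ 1 := pow_le_one₀ (by norm_num) (by norm_num)
      linarith
    rw [abs_of_nonneg (mul_nonneg hW.le hnn), mul_comm C] at h
    exact le_of_mul_le_mul_left h hW
  have hlim : Filter.Tendsto (fun r : ℕ => 3 * (1 - (1/2:ℝ) ^ r)) Filter.atTop (nhds (3 * (1 - 0))) :=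
    (tendsto_const_nhds.sub (tendsto_pow_atTop_nhds_zero_of_lt_one (by norm_num) (by norm_num))).const_mul 3
  have : 3 * (1 - (0:ℝ)) ≤ C := le_of_tendsto' hlim key
  linarith

end Vale.Agent.Results.P075.ConstAtLeastThree
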